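import Vale.Agent.P195.Final

open CategoryTheory

/-- The little finitistic dimension conjecture fails: there is a finite-dimensional algebra `A`
over a field having finitely generated left modules of every finite projective dimension
`n ≥ 1`, so that the supremum of the finite projective dimensions is infinite. -/
theorem Vale.Agent.Results.P176.Counterexample.result :
    ∃ (k : Type) (_ : Field k) (A : Type) (_ : Ring A) (_ : Algebra k A),
      FiniteDimensional k A ∧
      (∀ n : ℕ, 1 ≤ n → ∃ N : ModuleCat.{0} A, Module.Finite A N ∧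
        projectiveDimension N = (n : WithBot ℕ∞)) ∧
      (⨆ N : {N : ModuleCat.{0} A // Module.Finite A N ∧ projectiveDimension N ≠ ⊤},
        projectiveDimension N.1) = ⊤ := by
  obtain ⟨A, _, _, h1, h2⟩ := Vale.Agent.P195.theSetup.findim
  refine ⟨Vale.Agent.P195.KK, inferInstance, A, inferInstance, inferInstance, h1, h2, ?_⟩
  rw [ENat.WithBot.eq_top_iff_forall_ge]
  intro n
  obtain ⟨N, hN, hN'⟩ := h2 (n + 1) (by omega)
  refine le_iSup_of_le ⟨N, hN, ?_⟩ ?_
  · rw [hN']
    exact fun h => ENat.coe_ne_top (n + 1) (WithBot.coe_injective h)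
  · rw [hN']
    exact_mod_cast Nat.le_succ n
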